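import Vale.Agent.Lib.P193.Diag2
import Vale.Agent.Lib.P193.Kuznetsov
import Vale.Agent.Lib.P193.Solv

/-!
# P193 (Boone–Higman): no finitely presented simple group is universal

For every finitely presented simple group `S` there is a 3-generator solvable group with decidable
word problem which does not embed in `S`.
-/

namespace Vale.Agent.Results.P193.NoUniversalSimple

open Vale.Agent.Lib.P193

/-- `G` is finitely generated with decidable word problem: for some finite generating family
`g : Fin n → G` the set of words (lists of letters `(i, true)` for `g i` and `(i, false)` for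
`(g i)⁻¹`) that evaluate to `1` in `G` is a computable predicate. -/
def HasDecidableWP (G : Type) [Group G] : Prop :=
  ∃ (n : ℕ) (g : Fin n → G), Subgroup.closure (Set.range g) = ⊤ ∧
    ComputablePred (fun w : List (Fin n × Bool) => FreeGroup.lift g (FreeGroup.mk w) = 1)

theorem hasDecidableWP_GD {D : ℕ → Prop} (hD : ComputablePred D) : HasDecidableWP (GD D) := by
  refine ⟨3, genD D, closure_range_genD D, ?_⟩
  refine (computablePred_mem_ND hD).of_eq fun w => ?_
  rw [lift_genD, QuotientGroup.eq_one_iff]

theorem result (S : Type*) [Group S] [IsSimpleGroup S] [Group.IsFinitelyPresented S] :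
    ∃ (G : Type) (_ : Group G), HasDecidableWP G ∧ Group.IsSolvable G ∧
      ¬ ∃ f : G →* S, Function.Injective f := by
  obtain ⟨n, φ, hφ, hker⟩ := Group.IsFinitelyPresented.out (G := S)
  have hlift : FreeGroup.lift (fun i => φ (FreeGroup.of i)) = φ := by
    ext i; simp
  have hcl : Subgroup.closure (Set.range (fun i => φ (FreeGroup.of i))) = ⊤ := by
    rw [← FreeGroup.range_lift_eq_closure, hlift, MonoidHom.range_eq_top]
    exact hφ
  have hK := kuznetsov φ hφ hker
  obtain ⟨D, hD, hne⟩ := exists_not_embed (fun i => φ (FreeGroup.of i)) hcl (by rw [hlift]; exact hK)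
  exact ⟨GD D, inferInstance, hasDecidableWP_GD hD, inferInstance, hne⟩

end Vale.Agent.Results.P193.NoUniversalSimple
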